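import Vale.Agent.P136.Main

/-!
# Global uniqueness for the isotropic elastic inverse boundary value problem in dimension three
-/

namespace Vale.Agent.Results.P136.Calderon

open Vale.Agent.P136

theorem result (Ω : Set E3) (lam₁ mu₁ lam₂ mu₂ : E3 → ℝ) (hΩ : SmoothDomain Ω)
    (h₁ : Admissible Ω lam₁ mu₁) (h₂ : Admissible Ω lam₂ mu₂)
    (h : SameDN Ω lam₁ mu₁ lam₂ mu₂) :
    ∀ x ∈ Ω, lam₁ x = lam₂ x ∧ mu₁ x = mu₂ x :=
  main hΩ h₁ h₂ h

end Vale.Agent.Results.P136.Calderon
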